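import Vale.Agent.P315.H782.GreedyMD
import Vale.Agent.P315.H330.H3b

/-!
P315: the machine of a multi-scale region without state and without mixing.

* `md_flag` : the regret lemma (MD) in the form with separate start costs `D t` and end costs
  `D' t` of a round, over an arbitrary subset (`flag`) of the rounds.
* `Lrun` : linear costs of the instance with start block `j1` (a pure function of the history).
* `h3b_runs`, `h3b_runs'` : (H3b) for EVERY set `A` of active blocks, from one plain FTRL
  instance per start block; the price of an active block outside `A` is `cap log |E|` per phase.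
-/

set_option linter.unusedSectionVars false

open Finset

namespace Vale.Agent.P315.H519

open Vale.Agent.P315.H330
open Vale.Agent.P315.H782 hiding ent

variable {I E : Type*} [Fintype I] [Fintype E]

/-- linear costs of round `t`, when the rounds `j < t` with `flag j` form the history -/
noncomputable def Lf (D D' : ℕ → I → E → ℝ) (cap : ℝ) (flag : ℕ → Prop) [DecidablePred flag]
    (t : ℕ) : I → E → ℝ :=
  fun i e => cap⁻¹ * (2 * (∑ j ∈ (range t).filter flag, D j i e + D t i e)
    - ∑ j ∈ (range t).filter flag, wcl cap (D j) (D' j) i e)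

lemma pair_sum_left {κ : Type*} (s : Finset κ) (F : κ → I → E → ℝ) (x : I → E → ℝ) :
    pair (fun i e => ∑ j ∈ s, F j i e) x = ∑ j ∈ s, pair (F j) x := by
  simp only [pair]
  rw [Finset.sum_comm (s := s)]
  refine Finset.sum_congr rfl fun i _ => ?_
  rw [Finset.sum_comm (s := s)]
  refine Finset.sum_congr rfl fun e _ => ?_
  rw [Finset.sum_mul]

lemma pair_Lf (D D' : ℕ → I → E → ℝ) (cap : ℝ) (flag : ℕ → Prop) [DecidablePred flag]
    (t : ℕ) (x : I → E → ℝ) :
    pair (Lf D D' cap flag t) x =
      cap⁻¹ * (2 * (∑ j ∈ (range t).filter flag, pair (D j) x + pair (D t) x)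
        - ∑ j ∈ (range t).filter flag, pair (wcl cap (D j) (D' j)) x) := by
  rw [← pair_sum_left, ← pair_sum_left, ← pair_add_left, ← pair_smul_left, ← pair_sub_left,
    ← pair_smul_left]
  rfl

/-- **Regret lemma with separate end costs and sleeping rounds.** -/
theorem md_flag [Nonempty E] {X : Set (I → E → ℝ)} (hX : ∀ x ∈ X, Stoch x)
    (hconv : ∀ x ∈ X, ∀ y ∈ X, ∀ a : ℝ, 0 ≤ a → a ≤ 1 →
      (fun i e => (1 - a) * x i e + a * y i e) ∈ X)
    {flag : ℕ → Prop} [DecidablePred flag] {N : ℕ}
    {D D' : ℕ → I → E → ℝ} (hD : ∀ t, t < N → flag t → ∀ i e, D' t i e ≤ D t i e)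
    {cap : ℝ} (hcap : 0 < cap)
    {xh : ℕ → I → E → ℝ} (hxh : ∀ t, t < N → flag t → xh t ∈ X) {tau : ℝ}
    (hmin : ∀ t, t < N → flag t → ∀ y ∈ X, pair (Lf D D' cap flag t) (xh t) + ent (xh t) ≤
      pair (Lf D D' cap flag t) y + ent y + tau)
    {P : I → E → ℝ} (hP : P ∈ X) {th : ℝ} (hth0 : 0 < th) (hth1 : th ≤ 1 / 2) :
    ∑ t ∈ (range N).filter flag, pair (wcl cap (D t) (D' t)) P ≤
      2 * ∑ t ∈ (range N).filter flag, (pair (D t) P - pair (D' t) (xh t))
      + cap * ((Fintype.card I : ℝ) * Real.log (Fintype.card E : ℝ))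
      + (((range N).filter flag).card : ℝ)
        * (cap * (4 * th * (Fintype.card I : ℝ) + tau / th)) := by
  set m : ℝ := (Fintype.card I : ℝ) with hm
  set lE : ℝ := Real.log (Fintype.card E : ℝ) with hlE
  set err : ℝ := 4 * th * m + tau / th with herr
  have hci : 0 < cap⁻¹ := inv_pos.2 hcap
  have hmain : ∀ t, t ≤ N → ∀ x ∈ X,
      -(m * lE) + cap⁻¹ * (2 * ∑ j ∈ (range t).filter flag, pair (D' j) (xh j))
        - (((range t).filter flag).card : ℝ) * err ≤
      cap⁻¹ * (2 * ∑ j ∈ (range t).filter flag, pair (D j) x
        - ∑ j ∈ (range t).filter flag, pair (wcl cap (D j) (D' j)) x) + ent x := by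
    intro t
    induction t with
    | zero =>
      intro _ x hx
      have := ent_ge (hX x hx)
      simp only [Finset.range_zero, Finset.filter_empty, Finset.sum_empty, mul_zero, sub_zero,
        Finset.card_empty, Nat.cast_zero, zero_mul, add_zero, zero_add]
      exact this
    | succ t ih =>
      intro ht x hx
      have htN : t < N := ht
      rw [Finset.range_add_one, Finset.filter_insert]
      by_cases hf : flag t
      · rw [if_pos hf]
        have hnot : t ∉ (range t).filter flag := by simp
        rw [Finset.sum_insert hnot, Finset.sum_insert hnot, Finset.sum_insert hnot,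
          Finset.card_insert_of_notMem hnot]
        have hs0 : ∀ i e, 0 ≤ cap⁻¹ * wcl cap (D t) (D' t) i e := fun i e =>
          mul_nonneg hci.le (wcl_nonneg hcap (hD t htN hf) i e)
        have hs1 : ∀ i e, cap⁻¹ * wcl cap (D t) (D' t) i e ≤ 1 := fun i e =>
          inv_wcl_le_one hcap i e
        have hk := key hX hconv (hxh t htN hf) (hmin t htN hf) hs0 hs1 hx hth0 hth1
        rw [pair_smul_left, pair_smul_left, pair_Lf, pair_Lf] at hk
        have h2 : pair (wcl cap (D t) (D' t)) (xh t) ≤
            pair (D t) (xh t) - pair (D' t) (xh t) := by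
          rw [← pair_sub_left]
          exact pair_le_pair (hX _ (hxh t htN hf)).1 fun i e => min_le_left _ _
        have h3 := mul_le_mul_of_nonneg_left h2 hci.le
        have h4 := ih htN.le (xh t) (hxh t htN hf)
        have h5 : err = 4 * th * (Fintype.card I : ℝ) + tau / th := rfl
        push_cast
        nlinarith [hk, h3, h4]
      · rw [if_neg hf]
        exact ih htN.le x hx
  have h1 := hmain N le_rfl P hP
  have h2 := ent_nonpos (hX P hP)
  have h3 := mul_le_mul_of_nonneg_left h1 hcap.le
  set SD := ∑ j ∈ (range N).filter flag, pair (D j) P with hSD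
  set SW := ∑ j ∈ (range N).filter flag, pair (wcl cap (D j) (D' j)) P with hSW
  set SE := ∑ j ∈ (range N).filter flag, pair (D' j) (xh j) with hSE
  have h4 : cap * (-(m * lE) + cap⁻¹ * (2 * SE)
      - (((range N).filter flag).card : ℝ) * err) =
      -(cap * (m * lE)) + 2 * SE - (((range N).filter flag).card : ℝ) * (cap * err) := by
    field_simp
  have h5 : cap * (cap⁻¹ * (2 * SD - SW) + ent P) = 2 * SD - SW + cap * ent P := by
    field_simp
  rw [h4, h5] at h3
  have h6 : cap * ent P ≤ 0 := mul_nonpos_of_nonneg_of_nonpos hcap.le h2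
  rw [Finset.sum_sub_distrib]
  linarith

/-- Splitting a set `A` of active blocks into its maximal runs. -/
theorem sum_runs {act A : ℕ → Prop} [DecidablePred act] [DecidablePred A]
    {T : ℕ → ℝ} {C : ℝ} (hC : 0 ≤ C)
    (h : ∀ a b, (∀ j, a ≤ j → j < b → act j → A j) →
      ∑ j ∈ (Ico a b).filter A, T j ≤ C) (N : ℕ) :
    ∑ j ∈ (range N).filter A, T j ≤
      (1 + (((range N).filter fun j => act j ∧ ¬ A j).card : ℝ)) * C := by
  induction N using Nat.strong_induction_on with
  | _ N ih =>
    by_cases hex : ∃ j, j < N ∧ act j ∧ ¬ A j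
    · -- the last active block outside `A`
      obtain ⟨j, ⟨hjN, hja, hjA⟩, hmax⟩ :
          ∃ j, (j < N ∧ act j ∧ ¬ A j) ∧ ∀ j', j' < N ∧ act j' ∧ ¬ A j' → j' ≤ j := by
        obtain ⟨j0, h0⟩ := hex
        have hne : ((range N).filter fun j => act j ∧ ¬ A j).Nonempty :=
          ⟨j0, Finset.mem_filter.2 ⟨Finset.mem_range.2 h0.1, h0.2⟩⟩
        refine ⟨((range N).filter fun j => act j ∧ ¬ A j).max' hne, ?_, ?_⟩
        · have := Finset.max'_mem _ hne
          have h1 := Finset.mem_filter.1 this
          exact ⟨Finset.mem_range.1 h1.1, h1.2⟩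
        · intro j' hj'
          exact Finset.le_max' _ _ (Finset.mem_filter.2 ⟨Finset.mem_range.2 hj'.1, hj'.2⟩)
      have h1 := ih j hjN
      have h2 := h (j + 1) N fun j' h1' h2' h3' => by
        by_contra h4'
        have := hmax j' ⟨h2', h3', h4'⟩
        omega
      have hsplit : (range N).filter A = (range j).filter A ∪ (Ico (j + 1) N).filter A := by
        ext x
        simp only [Finset.mem_filter, Finset.mem_range, Finset.mem_union, Finset.mem_Ico]
        constructor
        · rintro ⟨hx, hA⟩
          rcases lt_trichotomy x j with h' | h' | h'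
          · exact Or.inl ⟨h', hA⟩
          · exact absurd (h' ▸ hA) hjA
          · exact Or.inr ⟨⟨h', hx⟩, hA⟩
        · rintro (⟨hx, hA⟩ | ⟨⟨_, hx⟩, hA⟩)
          · exact ⟨hx.trans hjN, hA⟩
          · exact ⟨hx, hA⟩
      have hdis : Disjoint ((range j).filter A) ((Ico (j + 1) N).filter A) := by
        rw [Finset.disjoint_left]
        intro x hx hx'
        simp only [Finset.mem_filter, Finset.mem_range, Finset.mem_Ico] at hx hx'
        omega
      rw [hsplit, Finset.sum_union hdis]
      have hcard : (((range j).filter fun j => act j ∧ ¬ A j).card : ℝ) + 1 ≤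
          (((range N).filter fun j => act j ∧ ¬ A j).card : ℝ) := by
        have hsub : insert j ((range j).filter fun j => act j ∧ ¬ A j) ⊆
            (range N).filter fun j => act j ∧ ¬ A j := by
          intro x hx
          rcases Finset.mem_insert.1 hx with rfl | hx
          · exact Finset.mem_filter.2 ⟨Finset.mem_range.2 hjN, hja, hjA⟩
          · have := Finset.mem_filter.1 hx
            exact Finset.mem_filter.2
              ⟨Finset.mem_range.2 ((Finset.mem_range.1 this.1).trans hjN), this.2⟩
        have := Finset.card_le_card hsub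
        rw [Finset.card_insert_of_notMem (by simp)] at this
        exact_mod_cast this
      nlinarith
    · have h1 := h 0 N fun j _ h2' h3' => by
        by_contra h4'
        exact hex ⟨j, h2', h3', h4'⟩
      rw [Nat.Ico_zero_eq_range] at h1
      refine h1.trans ?_
      have : (0 : ℝ) ≤ (((range N).filter fun j => act j ∧ ¬ A j).card : ℝ) := by positivity
      nlinarith

/-! ### Index form: one curve index `t : ℕ`, blocks of length `len`, offset `o` -/

/-- Number of the block of the index `t`: block `k` consists of `k len - o ≤ t < (k+1) len - o`. -/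
def blk (o len t : ℕ) : ℕ := (t + o) / len

/-- The window `[t, t + h]` lies in the closed block of `t`. -/
def win (o len h t : ℕ) : Prop := (t + (h - 1) + o) / len = (t + o) / len

instance (o len h : ℕ) : DecidablePred (win o len h) := fun t => by unfold win; infer_instance

/-- History of round `t` in the instance with start block `j1`: the rounds `t' < t` of the same
phase whose window lies in an active block `≥ j1` or in the block of `t`. -/
def hist (o len h : ℕ) (act : ℕ → Prop) [DecidablePred act] (j1 t : ℕ) : Finset ℕ :=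
  (range t).filter fun t' => t' % h = t % h ∧ win o len h t' ∧
    ((j1 ≤ blk o len t' ∧ act (blk o len t')) ∨ blk o len t' = blk o len t)

/-- Linear costs of round `t` of the instance with start block `j1`. -/
noncomputable def Lst (D : ℕ → I → E → ℝ) (cap : ℝ) (o len h : ℕ) (act : ℕ → Prop)
    [DecidablePred act] (j1 t : ℕ) : I → E → ℝ :=
  fun i e => cap⁻¹ * (2 * (∑ t' ∈ hist o len h act j1 t, D t' i e + D t i e)
    - ∑ t' ∈ hist o len h act j1 t, wcl cap (D t') (D (t' + h)) i e)

/-- flag of the rounds of one phase and one run -/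
def flg (o len h : ℕ) (act : ℕ → Prop) (j1 ph t : ℕ) : Prop :=
  t % h = ph ∧ win o len h t ∧ j1 ≤ blk o len t ∧ act (blk o len t)

instance (o len h : ℕ) (act : ℕ → Prop) [DecidablePred act] (j1 ph : ℕ) :
    DecidablePred (flg o len h act j1 ph) := fun t => by unfold flg; infer_instance

lemma Lst_eq_Lf (D : ℕ → I → E → ℝ) (cap : ℝ) {o len h : ℕ} {act : ℕ → Prop}
    [DecidablePred act] {j1 ph t : ℕ} (hf : flg o len h act j1 ph t) :
    Lst D cap o len h act j1 t =
      Lf D (fun t => D (t + h)) cap (flg o len h act j1 ph) t := by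
  obtain ⟨h1, h2, h3, h4⟩ := hf
  have hset : hist o len h act j1 t = (range t).filter (flg o len h act j1 ph) := by
    unfold hist
    refine Finset.filter_congr fun t' _ => ?_
    unfold flg
    constructor
    · rintro ⟨a, b, c⟩
      refine ⟨a.trans h1, b, ?_⟩
      rcases c with c | c
      · exact c
      · rw [c]; exact ⟨h3, h4⟩
    · rintro ⟨a, b, c⟩
      exact ⟨a.trans h1.symm, b, Or.inl c⟩
  unfold Lst Lf
  rw [hset]

lemma anti_nat {D : ℕ → I → E → ℝ} (hD : ∀ t i e, D (t + 1) i e ≤ D t i e) (i : I) (e : E)
    (t : ℕ) : ∀ n, D (t + n) i e ≤ D t i e := by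
  intro n
  induction n with
  | zero => simp
  | succ n ih => exact (hD (t + n) i e).trans ih

/-- **(H3b) for all sets of active blocks, from one FTRL instance per start block.** Block
numbers `< N`; `xh j1 t` = law computed in round `t` by the instance with start block `j1`. -/
theorem start_blocks [Nonempty E] {X : Set (I → E → ℝ)} (hX : ∀ x ∈ X, Stoch x)
    (hconv : ∀ x ∈ X, ∀ y ∈ X, ∀ a : ℝ, 0 ≤ a → a ≤ 1 →
      (fun i e => (1 - a) * x i e + a * y i e) ∈ X)
    {D : ℕ → I → E → ℝ} (hD : ∀ t i e, D (t + 1) i e ≤ D t i e) {cap : ℝ} (hcap : 0 < cap)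
    {o len h : ℕ} (hlen : 0 < len) (hh : 0 < h) {act A : ℕ → Prop} [DecidablePred act]
    [DecidablePred A] (hA : ∀ j, A j → act j) {N : ℕ} {xh : ℕ → ℕ → I → E → ℝ} {tau : ℝ}
    (hxh : ∀ j1 t, blk o len t < N → win o len h t → A (blk o len t) → act j1 →
      j1 ≤ blk o len t → xh j1 t ∈ X ∧ ∀ y ∈ X,
        pair (Lst D cap o len h act j1 t) (xh j1 t) + ent (xh j1 t) ≤
          pair (Lst D cap o len h act j1 t) y + ent y + tau)
    {P : I → E → ℝ} (hP : P ∈ X) {th : ℝ} (hth0 : 0 < th) (hth1 : th ≤ 1 / 2) {G : ℕ → ℝ}
    (hG : ∀ j1 t, blk o len t < N → win o len h t → A (blk o len t) → act j1 →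
      j1 ≤ blk o len t → pair (D t) P - pair (D (t + h)) (xh j1 t) ≤ G t) :
    ∑ j ∈ (range N).filter A, ∑ t ∈ (range (N * len)).filter
        (fun t => blk o len t = j ∧ win o len h t), pair (wcl cap (D t) (D (t + h))) P ≤
      2 * ∑ j ∈ (range N).filter A, ∑ t ∈ (range (N * len)).filter
        (fun t => blk o len t = j ∧ win o len h t), G t
      + (1 + (((range N).filter fun j => act j ∧ ¬ A j).card : ℝ))
        * (h * (cap * ((Fintype.card I : ℝ) * Real.log (Fintype.card E : ℝ))))
      + ∑ j ∈ (range N).filter A, (((range (N * len)).filter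
        (fun t => blk o len t = j ∧ win o len h t)).card : ℝ)
        * (cap * (4 * th * (Fintype.card I : ℝ) + tau / th)) := by
  set m : ℝ := (Fintype.card I : ℝ) with hm
  set lE : ℝ := Real.log (Fintype.card E : ℝ) with hlE
  set err : ℝ := cap * (4 * th * m + tau / th) with herr
  have hlE0 : 0 ≤ lE := by
    apply Real.log_nonneg
    exact_mod_cast Fintype.card_pos
  have hm0 : 0 ≤ m := by rw [hm]; positivity
  set B : ℕ → Finset ℕ := fun j =>
    (range (N * len)).filter (fun t => blk o len t = j ∧ win o len h t) with hB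
  have key0 : ∀ a b, b ≤ N → (∀ j, a ≤ j → j < b → act j → A j) →
      ∑ j ∈ (Ico a b).filter A, ∑ t ∈ B j,
        (pair (wcl cap (D t) (D (t + h))) P - 2 * G t - err) ≤ h * (cap * (m * lE)) := by
    intro a b hb hrun
    have hC : 0 ≤ h * (cap * (m * lE)) := by positivity
    by_cases hex : ∃ j, a ≤ j ∧ j < b ∧ act j
    · -- the start block
      have hdec : DecidablePred fun j => a ≤ j ∧ j < b ∧ act j := fun _ => inferInstance
      set j1 := Nat.find hex with hj1
      obtain ⟨h1a, h1b, h1c⟩ := Nat.find_spec hex
      rw [← hj1] at h1a h1b h1c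
      have hmin1 : ∀ j, a ≤ j → j < b → act j → j1 ≤ j := fun j ha hb' hc =>
        Nat.find_min' hex ⟨ha, hb', hc⟩
      have hph : ∀ ph ∈ range h,
          ∑ t ∈ (range (b * len - o)).filter (flg o len h act j1 ph),
            (pair (wcl cap (D t) (D (t + h))) P - 2 * G t - err) ≤ cap * (m * lE) := by
        intro ph _
        have hlt : ∀ t, t < b * len - o → blk o len t < b := by
          intro t ht
          unfold blk
          rw [Nat.div_lt_iff_lt_mul hlen]
          omega
        have hcond : ∀ t, t < b * len - o → flg o len h act j1 ph t →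
            blk o len t < N ∧ win o len h t ∧ A (blk o len t) ∧ j1 ≤ blk o len t := by
          rintro t ht ⟨_, hw, hj, ha⟩
          exact ⟨(hlt t ht).trans_le hb, hw,
            hrun _ (h1a.trans hj) (hlt t ht) ha, hj⟩
        have hmd := md_flag (N := b * len - o) (flag := flg o len h act j1 ph)
          (D := D) (D' := fun t => D (t + h)) (xh := xh j1) hX hconv
          (fun t _ _ i e => anti_nat hD i e t h) hcap
          (fun t ht hf => by
            obtain ⟨c1, c2, c3, c4⟩ := hcond t ht hf
            exact (hxh j1 t c1 c2 c3 h1c c4).1)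
          (fun t ht hf y hy => by
            obtain ⟨c1, c2, c3, c4⟩ := hcond t ht hf
            have := (hxh j1 t c1 c2 c3 h1c c4).2 y hy
            rwa [Lst_eq_Lf D cap hf] at this)
          hP hth0 hth1
        have hGs : ∑ t ∈ (range (b * len - o)).filter (flg o len h act j1 ph),
            (pair (D t) P - pair (D (t + h)) (xh j1 t)) ≤
            ∑ t ∈ (range (b * len - o)).filter (flg o len h act j1 ph), G t := by
          refine Finset.sum_le_sum fun t ht => ?_
          obtain ⟨ht1, ht2⟩ := Finset.mem_filter.1 ht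
          obtain ⟨c1, c2, c3, c4⟩ := hcond t (Finset.mem_range.1 ht1) ht2
          exact hG j1 t c1 c2 c3 h1c c4
        rw [Finset.sum_sub_distrib, Finset.sum_sub_distrib, ← Finset.mul_sum,
          Finset.sum_const, nsmul_eq_mul]
        linarith
      have hsum := Finset.sum_le_sum hph
      rw [Finset.sum_const, Finset.card_range, nsmul_eq_mul] at hsum
      refine le_trans (le_of_eq ?_) hsum
      -- both sides are the sum over the rounds of the run
      set F : ℕ → ℝ := fun t => pair (wcl cap (D t) (D (t + h))) P - 2 * G t - err with hF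
      have e1 : ∑ ph ∈ range h, ∑ t ∈ (range (b * len - o)).filter (flg o len h act j1 ph), F t =
          ∑ t ∈ (range (b * len - o)).filter
            (fun t => win o len h t ∧ j1 ≤ blk o len t ∧ act (blk o len t)), F t := by
        rw [← Finset.sum_fiberwise_of_maps_to (s := (range (b * len - o)).filter
            (fun t => win o len h t ∧ j1 ≤ blk o len t ∧ act (blk o len t)))
            (t := range h) (g := fun t => t % h)
            (fun t _ => Finset.mem_range.2 (Nat.mod_lt _ hh))]
        refine Finset.sum_congr rfl fun ph _ => ?_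
        refine Finset.sum_congr ?_ fun _ _ => rfl
        ext t
        simp only [Finset.mem_filter, Finset.mem_range, flg]
        tauto
      have e2 : ∑ j ∈ (Ico a b).filter A, ∑ t ∈ B j, F t =
          ∑ t ∈ (range (b * len - o)).filter
            (fun t => win o len h t ∧ j1 ≤ blk o len t ∧ act (blk o len t)), F t := by
        rw [← Finset.sum_fiberwise_of_maps_to (s := (range (b * len - o)).filter
            (fun t => win o len h t ∧ j1 ≤ blk o len t ∧ act (blk o len t)))
            (t := (Ico a b).filter A) (g := fun t => blk o len t)]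
        · refine Finset.sum_congr rfl fun j hj => ?_
          obtain ⟨hj1', hjA⟩ := Finset.mem_filter.1 hj
          obtain ⟨hja, hjb⟩ := Finset.mem_Ico.1 hj1'
          refine Finset.sum_congr ?_ fun _ _ => rfl
          ext t
          simp only [Finset.mem_filter, Finset.mem_range, hB]
          constructor
          · rintro ⟨_, h2, h3⟩
            have hlt : t < b * len - o := by
              have : blk o len t < b := by rw [h2]; exact hjb
              unfold blk at this
              rw [Nat.div_lt_iff_lt_mul hlen] at this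
              omega
            exact ⟨⟨hlt, h3, by rw [h2]; exact hmin1 j hja hjb (hA j hjA),
              by rw [h2]; exact hA j hjA⟩, h2⟩
          · rintro ⟨⟨h1, h2, _, _⟩, h5⟩
            refine ⟨?_, h5, h2⟩
            have : b * len ≤ N * len := Nat.mul_le_mul_right _ hb
            omega
        · intro t ht
          simp only [Finset.mem_filter, Finset.mem_range] at ht
          obtain ⟨h1, _, h3, h4⟩ := ht
          have hlt : blk o len t < b := by
            unfold blk
            rw [Nat.div_lt_iff_lt_mul hlen]
            omega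
          exact Finset.mem_filter.2 ⟨Finset.mem_Ico.2 ⟨h1a.trans h3, hlt⟩,
            hrun _ (h1a.trans h3) hlt h4⟩
      rw [e1, e2]
    · have : (Ico a b).filter A = ∅ := by
        refine Finset.filter_eq_empty_iff.2 fun j hj hAj => ?_
        obtain ⟨h1, h2⟩ := Finset.mem_Ico.1 hj
        exact hex ⟨j, h1, h2, hA j hAj⟩
      rw [this, Finset.sum_empty]
      exact hC
  -- cut the blocks ≥ N off
  have hruns := sum_runs (act := fun j => act j ∧ j < N) (A := fun j => A j ∧ j < N)
    (T := fun j => ∑ t ∈ B j, (pair (wcl cap (D t) (D (t + h))) P - 2 * G t - err))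
    (C := h * (cap * (m * lE))) (by positivity) (fun a b hrun => by
      have hcut : (Ico a b).filter (fun j => A j ∧ j < N) =
          (Ico a (min b N)).filter A := by
        ext j
        simp only [Finset.mem_filter, Finset.mem_Ico, lt_min_iff]
        tauto
      rw [hcut]
      refine key0 a (min b N) (min_le_right _ _) fun j h1 h2 h3 => ?_
      rw [lt_min_iff] at h2
      exact (hrun j h1 h2.1 ⟨h3, h2.2⟩).1) N
  have f1 : (range N).filter (fun j => A j ∧ j < N) = (range N).filter A :=
    Finset.filter_congr fun j hj => by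
      have := Finset.mem_range.1 hj
      tauto
  have f2 : (range N).filter (fun j => (act j ∧ j < N) ∧ ¬ (A j ∧ j < N)) =
      (range N).filter (fun j => act j ∧ ¬ A j) :=
    Finset.filter_congr fun j hj => by
      have := Finset.mem_range.1 hj
      tauto
  rw [f1, f2] at hruns
  simp only [Finset.sum_sub_distrib, ← Finset.mul_sum, Finset.sum_const, nsmul_eq_mul] at hruns
  linarith

/-- The rounds of the full block `k`. -/
lemma sum_block {M : Type*} [AddCommMonoid M] (f : ℕ → M) {o len h N k : ℕ} (hlen : 0 < len)
    (hh : 0 < h) (hhl : h ≤ len) (hk : k < N) (ho : o ≤ k * len) :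
    ∑ t ∈ (range (N * len)).filter (fun t => blk o len t = k ∧ win o len h t), f t =
      ∑ i ∈ range (len + 1 - h), f (k * len - o + i) := by
  have hset : (range (N * len)).filter (fun t => blk o len t = k ∧ win o len h t) =
      (range (len + 1 - h)).image (fun i => k * len - o + i) := by
    ext t
    rw [Finset.mem_filter, Finset.mem_range, Finset.mem_image]
    have hkN : (k + 1) * len ≤ N * len := Nat.mul_le_mul_right _ hk
    have hk1 : (k + 1) * len = k * len + len := by ring
    constructor
    · rintro ⟨_, h2, h3⟩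
      unfold win at h3
      unfold blk at h2
      rw [h2] at h3
      rw [Nat.div_eq_iff hlen] at h2 h3
      exact ⟨t + o - k * len, Finset.mem_range.2 (by omega), by omega⟩
    · rintro ⟨i, hi, rfl⟩
      rw [Finset.mem_range] at hi
      unfold win blk
      have e1 : (k * len - o + i + o) / len = k := by
        rw [Nat.div_eq_iff hlen]
        omega
      have e2 : (k * len - o + i + (h - 1) + o) / len = k := by
        rw [Nat.div_eq_iff hlen]
        omega
      exact ⟨by omega, e1, by rw [e1, e2]⟩
  rw [hset, Finset.sum_image]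
  intro a _ b _ hab
  simpa using hab

/-- Average drop in the windows `[b, b+h)` inside the block `[b0, b0 + len)`, over the rows
whose drop in the whole block is at most `cap`. -/
noncomputable def lhsN (D : ℕ → I → E → ℝ) (p : I → E) (cap : ℝ) (h len b0 : ℕ) : ℝ :=
  (∑ i ∈ range (len + 1 - h), ∑ u, (if D b0 u (p u) - D (b0 + len) u (p u) ≤ cap then
      D (b0 + i) u (p u) - D (b0 + i + h) u (p u) else 0)) / (Fintype.card I : ℝ)

/-- **(H3b), averaged form, greedy solver with the integer table of harmonic numbers.**
`act` = the blocks of one class, `A` any set of them (all of them full blocks), `P = ind p` the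
comparison path, `pk j1 t` = the list of paths of round `t` in the instance with start block
`j1`. -/
theorem h3b_start [Nonempty I] [Nonempty E] [DecidableEq E] {PP : Set (I → E)}
    {D : ℕ → I → E → ℝ} (hD : ∀ t i e, D (t + 1) i e ≤ D t i e) {cap : ℝ} (hcap : 0 < cap)
    {o len h : ℕ} (hh : 0 < h) (hhl : h ≤ len) {act A : ℕ → Prop} [DecidablePred act]
    [DecidablePred A] (hA : ∀ j, A j → act j) {N : ℕ} (hAo : ∀ j, A j → o ≤ j * len)
    {S T : ℕ} (hS : 0 < S) (hT : 0 < T) {pk : ℕ → ℕ → ℕ → I → E}
    (hpk : ∀ j1 t, blk o len t < N → win o len h t → A (blk o len t) → act j1 →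
      j1 ≤ blk o len t → Greedy (harm S) (Lst D cap o len h act j1 t) PP T (pk j1 t))
    {p : I → E} (hp : p ∈ PP) {th : ℝ} (hth0 : 0 < th) (hth1 : th ≤ 1 / 2)
    {G : ℕ → ℝ} (hG0 : ∀ t, 0 ≤ G t) {del : ℝ} (hdel : 0 ≤ del)
    (hG : ∀ j1 t, blk o len t < N → win o len h t → A (blk o len t) → act j1 →
      j1 ≤ blk o len t →
      (pv (D t) p - val (D (t + h)) (xx (pk j1 t) T)) / (Fintype.card I : ℝ) ≤ G t + del) :
    ∑ j ∈ (range N).filter A, lhsN D p cap h len (j * len - o) ≤
      2 * ∑ j ∈ (range N).filter A, ∑ i ∈ range len, G (j * len - o + i)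
      + (1 + (((range N).filter fun j => act j ∧ ¬ A j).card : ℝ))
        * (h * (cap * Real.log (Fintype.card E : ℝ)))
      + (((range N).filter A).card : ℝ) * (len * (2 * del
          + cap * (4 * th + err1 (Fintype.card E) T (T / S) / th))) := by
  have hlen : 0 < len := lt_of_lt_of_le hh hhl
  have hm : 0 < Fintype.card E := Fintype.card_pos
  have hcI : (0 : ℝ) < (Fintype.card I : ℝ) := by exact_mod_cast Fintype.card_pos
  have herr0 : 0 ≤ err1 (Fintype.card E) T (T / S) := by
    unfold err1
    have hmR : (0 : ℝ) < (Fintype.card E : ℝ) := by exact_mod_cast hm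
    have h1 : 0 ≤ Real.log (((T : ℝ) + (Fintype.card E : ℝ)) / (Fintype.card E : ℝ)) := by
      apply Real.log_nonneg
      rw [one_le_div hmR]
      have : (0 : ℝ) ≤ T := by positivity
      linarith
    positivity
  have hmain := start_blocks (X := Flow PP) (fun x hx => flow_stoch hx)
    (fun x hx y hy a ha0 ha1 => by
      have := (convex_convexHull ℝ (ind '' PP)) hx hy (sub_nonneg.mpr ha1) ha0 (by ring)
      exact this)
    hD hcap (o := o) hlen hh hA (N := N) (xh := fun j1 t => xx (pk j1 t) T)
    (tau := Fintype.card I * err1 (Fintype.card E) T (T / S))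
    (fun j1 t c1 c2 c3 c4 c5 => ⟨xx_mem_flow hT (hpk j1 t c1 c2 c3 c4 c5).mem, fun y hy => by
      rw [pair_eq_val, pair_eq_val]
      exact greedy_regret (harm_HF hS T) (hpk j1 t c1 c2 c3 c4 c5) hT hm hy⟩)
    (P := H782.ind p) (subset_convexHull ℝ _ ⟨p, hp, rfl⟩) hth0 hth1
    (G := fun t => (Fintype.card I : ℝ) * (G t + del))
    (fun j1 t c1 c2 c3 c4 c5 => by
      have := hG j1 t c1 c2 c3 c4 c5
      rw [div_le_iff₀ hcI] at this
      rw [pair_eq_val, pair_eq_val, val_ind]
      simp only [pv] at this
      linarith)
  have hfull : ∀ j ∈ (range N).filter A, j < N ∧ o ≤ j * len := fun j hj =>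
    ⟨Finset.mem_range.1 (Finset.mem_filter.1 hj).1, hAo j (Finset.mem_filter.1 hj).2⟩
  have r1 : ∀ f : ℕ → ℝ, ∑ j ∈ (range N).filter A, ∑ t ∈ (range (N * len)).filter
        (fun t => blk o len t = j ∧ win o len h t), f t =
      ∑ j ∈ (range N).filter A, ∑ i ∈ range (len + 1 - h), f (j * len - o + i) := fun f =>
    Finset.sum_congr rfl fun j hj => sum_block f hlen hh hhl (hfull j hj).1 (hfull j hj).2
  have r2 : ∀ j ∈ (range N).filter A, (((range (N * len)).filter
      (fun t => blk o len t = j ∧ win o len h t)).card : ℝ) = ((len + 1 - h : ℕ) : ℝ) := by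
    intro j hj
    have := sum_block (fun _ => (1 : ℕ)) hlen hh hhl (hfull j hj).1 (hfull j hj).2
    simp only [Finset.sum_const, smul_eq_mul, mul_one, Finset.card_range] at this
    rw [this]
  have r3 : ∑ j ∈ (range N).filter A, (((range (N * len)).filter
      (fun t => blk o len t = j ∧ win o len h t)).card : ℝ)
        * (cap * (4 * th * (Fintype.card I : ℝ)
          + (Fintype.card I : ℝ) * err1 (Fintype.card E) T (T / S) / th)) =
      ∑ j ∈ (range N).filter A, ((len + 1 - h : ℕ) : ℝ)
        * (cap * (4 * th * (Fintype.card I : ℝ)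
          + (Fintype.card I : ℝ) * err1 (Fintype.card E) T (T / S) / th)) :=
    Finset.sum_congr rfl fun j hj => by rw [r2 j hj]
  rw [r1, r1, r3] at hmain
  -- left side
  have hL : ∑ j ∈ (range N).filter A, lhsN D p cap h len (j * len - o) ≤
      (∑ j ∈ (range N).filter A, ∑ i ∈ range (len + 1 - h),
        pair (wcl cap (D (j * len - o + i)) (D (j * len - o + i + h))) (H782.ind p))
        / (Fintype.card I : ℝ) := by
    rw [Finset.sum_div]
    refine Finset.sum_le_sum fun j _ => ?_
    unfold lhsN
    refine div_le_div_of_nonneg_right ?_ hcI.le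
    refine Finset.sum_le_sum fun i hi => ?_
    have hi' := Finset.mem_range.1 hi
    rw [pair_eq_val, val_ind]
    refine Finset.sum_le_sum fun u _ => ?_
    show _ ≤ min (D (j * len - o + i) u (p u) - D (j * len - o + i + h) u (p u)) cap
    have h1 : D (j * len - o + i) u (p u) ≤ D (j * len - o) u (p u) := anti_nat hD u (p u) _ i
    have h2 : D (j * len - o + len) u (p u) ≤ D (j * len - o + i + h) u (p u) := by
      have := anti_nat hD u (p u) (j * len - o + i + h) (len - (i + h))
      have he : j * len - o + i + h + (len - (i + h)) = j * len - o + len := by omega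
      rwa [he] at this
    have h3 : D (j * len - o + i + h) u (p u) ≤ D (j * len - o + i) u (p u) :=
      anti_nat hD u (p u) _ h
    split_ifs with hc
    · exact le_min le_rfl (by linarith)
    · exact le_min (by linarith) hcap.le
  refine hL.trans ?_
  rw [div_le_iff₀ hcI]
  refine hmain.trans ?_
  -- right side
  have hGle : ∑ j ∈ (range N).filter A, ∑ i ∈ range (len + 1 - h),
        ((Fintype.card I : ℝ) * (G (j * len - o + i) + del)) ≤
      (Fintype.card I : ℝ) * (∑ j ∈ (range N).filter A, ∑ i ∈ range len, G (j * len - o + i)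
        + (((range N).filter A).card : ℝ) * (len * del)) := by
    have : ∀ j ∈ (range N).filter A, ∑ i ∈ range (len + 1 - h),
        ((Fintype.card I : ℝ) * (G (j * len - o + i) + del)) ≤
        (Fintype.card I : ℝ) * (∑ i ∈ range len, G (j * len - o + i) + len * del) := by
      intro j _
      rw [← Finset.mul_sum]
      refine mul_le_mul_of_nonneg_left ?_ hcI.le
      rw [Finset.sum_add_distrib, Finset.sum_const, Finset.card_range, nsmul_eq_mul]
      refine add_le_add ?_ ?_
      · exact Finset.sum_le_sum_of_subset_of_nonneg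
          (Finset.range_subset_range.2 (by omega)) fun i _ _ => hG0 _
      · refine mul_le_mul_of_nonneg_right ?_ hdel
        exact_mod_cast (by omega : len + 1 - h ≤ len)
    refine (Finset.sum_le_sum this).trans (le_of_eq ?_)
    rw [← Finset.mul_sum, Finset.sum_add_distrib, Finset.sum_const, nsmul_eq_mul]
  have hcard : ∑ j ∈ (range N).filter A, (((len + 1 - h : ℕ) : ℝ)
      * (cap * (4 * th * (Fintype.card I : ℝ)
        + (Fintype.card I : ℝ) * err1 (Fintype.card E) T (T / S) / th))) ≤
      (((range N).filter A).card : ℝ) * (len * (cap * ((Fintype.card I : ℝ)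
        * (4 * th + err1 (Fintype.card E) T (T / S) / th)))) := by
    rw [Finset.sum_const, nsmul_eq_mul]
    refine mul_le_mul_of_nonneg_left ?_ (by positivity)
    have e1 : 4 * th * (Fintype.card I : ℝ)
        + (Fintype.card I : ℝ) * err1 (Fintype.card E) T (T / S) / th =
        (Fintype.card I : ℝ) * (4 * th + err1 (Fintype.card E) T (T / S) / th) := by
      field_simp
    rw [e1]
    refine mul_le_mul_of_nonneg_right ?_ (by positivity)
    exact_mod_cast (by omega : len + 1 - h ≤ len)
  nlinarith [hGle, hcard]

end Vale.Agent.P315.H519
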