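import Vale.Agent.P315.H763.GreedyW
import Vale.Agent.P315.H519.Runs

/-!
P315, Milestone 2 (row M2-WMD): the START-BLOCK machine with edge weights.

* `keyW` : the key inequality at a weighted solution, for `0 ≤ s ≤ a`.
* `md_flagW` : weighted regret lemma, caps `cap * a`, separate end costs, sleeping rounds.
* `start_abs` : splitting of an arbitrary set of active blocks into runs (abstract form).
* `start_blocksW`, `h3b_startW` : (H3b) for every set `A` of active blocks.
-/

set_option linter.unusedSectionVars false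

open Finset

namespace Vale.Agent.P315.H519

open Vale.Agent.P315.H330
open Vale.Agent.P315.H782 hiding ent
open Vale.Agent.P315.H763 (SolvedW GreedyW errW qs)

variable {I E : Type*} [Fintype I] [Fintype E]

/-- truncated drop, the cap of an edge is `cap * a` -/
noncomputable def wclW (cap : ℝ) (a D D' : I → E → ℝ) : I → E → ℝ :=
  fun i e => min (D i e - D' i e) (cap * a i e)

/-- weighted regulariser `∑ a (x log x - x)` -/
noncomputable def entW (a x : I → E → ℝ) : ℝ :=
  ∑ i, ∑ e, a i e * (x i e * Real.log (x i e) - x i e)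

/-- Start cost of a path. -/
noncomputable def Phi0 (a b : I → E → ℝ) (p : I → E) : ℝ :=
  ∑ i, a i (p i) * (b i (p i) - 1) + ∑ i, ∑ e, a i e * Real.exp (-(b i e))

lemma wclW_nonneg {cap : ℝ} (hcap : 0 < cap) {a D D' : I → E → ℝ} (ha : ∀ i e, 0 < a i e)
    (hD : ∀ i e, D' i e ≤ D i e) (i : I) (e : E) : 0 ≤ wclW cap a D D' i e :=
  le_min (by linarith [hD i e]) (mul_nonneg hcap.le (ha i e).le)

lemma inv_wclW_le {cap : ℝ} (hcap : 0 < cap) (a D D' : I → E → ℝ) (i : I) (e : E) :
    cap⁻¹ * wclW cap a D D' i e ≤ a i e := by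
  have h : wclW cap a D D' i e ≤ cap * a i e := min_le_right _ _
  have h2 := mul_le_mul_of_nonneg_left h (inv_pos.2 hcap).le
  rwa [← mul_assoc, inv_mul_cancel₀ hcap.ne', one_mul] at h2

/-- The optimality inequality extends from the paths to the laws. -/
lemma opt_flow [DecidableEq E] {PP : Set (I → E)} {a L xh q : I → E → ℝ} {e1 e2 : ℝ}
    (hs : SolvedW PP a L xh q e1 e2) {x : I → E → ℝ} (hx : x ∈ H782.Flow PP) :
    -pair (fun i e => a i e * Real.log (q i e)) x ≤ pair L x -
      (pair L xh + ∑ i, ∑ e, a i e * (xh i e * Real.log (xh i e))) + e1 := by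
  have hsub : H782.Flow PP ⊆ {x | -pair (fun i e => a i e * Real.log (q i e)) x ≤ pair L x -
      (pair L xh + ∑ i, ∑ e, a i e * (xh i e * Real.log (xh i e))) + e1} := by
    apply convexHull_min
    · rintro _ ⟨p, hp, rfl⟩
      have h := hs.opt p hp
      simp only [Set.mem_ofPred_eq]
      have e1' : pair (fun i e => a i e * Real.log (q i e)) (H782.ind p) =
          ∑ i, a i (p i) * Real.log (q i (p i)) := by
        rw [pair_eq_val, val_ind]
      have e2' : pair L (H782.ind p) = ∑ i, L i (p i) := by
        rw [pair_eq_val, val_ind]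
      rw [e1', e2']
      exact h
    · intro y hy z hz α β hα hβ hαβ
      simp only [Set.mem_ofPred_eq] at hy hz ⊢
      have h1 : ∀ F : I → E → ℝ, pair F (α • y + β • z) = α * pair F y + β * pair F z := by
        intro F
        exact pair_comb_right F y z α β
      rw [h1, h1]
      have h2 := mul_le_mul_of_nonneg_left hy hα
      have h3 := mul_le_mul_of_nonneg_left hz hβ
      set c := (pair L xh + ∑ i, ∑ e, a i e * (xh i e * Real.log (xh i e))) with hc
      have h4 : c = α * c + β * c := by rw [← add_mul, hαβ, one_mul]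
      have h5 : e1 = α * e1 + β * e1 := by rw [← add_mul, hαβ, one_mul]
      nlinarith [h2, h3, h4, h5]
  exact hsub hx

lemma flow_nonneg [DecidableEq E] {PP : Set (I → E)} {x : I → E → ℝ} (hx : x ∈ H782.Flow PP)
    (i : I) (e : E) : 0 ≤ x i e := (flow_stoch hx).1 i e

/-- **Key inequality with weights.** -/
theorem keyW [DecidableEq E] {PP : Set (I → E)} {a L xh q : I → E → ℝ} {e1 e2 : ℝ}
    (ha : ∀ i e, 0 < a i e) (hs : SolvedW PP a L xh q e1 e2) {s : I → E → ℝ}
    (hs0 : ∀ i e, 0 ≤ s i e) (hs1 : ∀ i e, s i e ≤ a i e) {x : I → E → ℝ}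
    (hx : x ∈ H782.Flow PP) :
    pair L xh + entW a xh - 2 * pair s xh - (e1 + 3 * e2) ≤
      pair L x + entW a x - pair s x := by
  have h1 := opt_flow hs hx
  obtain ⟨r, hr0, hr1, hr2⟩ := hs.q_le
  -- pointwise Gibbs
  have h2 : ∀ i e, -(a i e * q i e) - 2 * (s i e * q i e) ≤
      a i e * (x i e * Real.log (x i e) - x i e) - (a i e * Real.log (q i e)) * x i e
        - s i e * x i e := by
    intro i e
    have hai := ha i e
    have hg := coord_gibbs (x := x i e) (y := q i e) (s := s i e / a i e)
      (flow_nonneg hx i e) (hs.q_pos i e).le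
      (fun h => absurd h (hs.q_pos i e).ne') (div_nonneg (hs0 i e) hai.le)
      ((div_le_one hai).2 (hs1 i e))
    have hg2 := mul_le_mul_of_nonneg_left hg hai.le
    have e3 : a i e * (x i e - q i e * (1 + 2 * (s i e / a i e))) =
        a i e * x i e - a i e * q i e - 2 * (s i e * q i e) := by
      field_simp
      ring
    have e4 : a i e * (x i e * Real.log (x i e) - x i e * Real.log (q i e)
        - s i e / a i e * x i e) =
        a i e * (x i e * Real.log (x i e)) - (a i e * Real.log (q i e)) * x i e
          - s i e * x i e := by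
      field_simp
    rw [e3, e4] at hg2
    nlinarith [hg2]
  have h3 : -(∑ i, ∑ e, a i e * q i e) - 2 * pair s q ≤
      entW a x - pair (fun i e => a i e * Real.log (q i e)) x - pair s x := by
    unfold entW pair
    rw [Finset.mul_sum, ← Finset.sum_neg_distrib, ← Finset.sum_sub_distrib,
      ← Finset.sum_sub_distrib, ← Finset.sum_sub_distrib]
    refine Finset.sum_le_sum fun i _ => ?_
    rw [Finset.mul_sum, ← Finset.sum_neg_distrib, ← Finset.sum_sub_distrib,
      ← Finset.sum_sub_distrib, ← Finset.sum_sub_distrib]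
    exact Finset.sum_le_sum fun e _ => h2 i e
  have h4 : ∑ i, ∑ e, a i e * q i e ≤ ∑ i, ∑ e, a i e * xh i e + e2 := by
    refine le_trans ?_ (add_le_add_right hr1 _)
    rw [← Finset.sum_add_distrib]
    refine Finset.sum_le_sum fun i _ => ?_
    rw [← Finset.sum_add_distrib]
    refine Finset.sum_le_sum fun e _ => ?_
    rw [← mul_add]
    exact mul_le_mul_of_nonneg_left (hr2 i e) (ha i e).le
  have h5 : pair s q ≤ pair s xh + e2 := by
    have : pair s q ≤ pair s xh + ∑ i, ∑ e, a i e * r i e := by
      unfold pair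
      rw [← Finset.sum_add_distrib]
      refine Finset.sum_le_sum fun i _ => ?_
      rw [← Finset.sum_add_distrib]
      refine Finset.sum_le_sum fun e _ => ?_
      have h6 := mul_le_mul_of_nonneg_left (hr2 i e) (hs0 i e)
      have h7 := mul_le_mul_of_nonneg_right (hs1 i e) (hr0 i e)
      linarith
    linarith
  have h6 : entW a xh = ∑ i, ∑ e, a i e * (xh i e * Real.log (xh i e))
      - ∑ i, ∑ e, a i e * xh i e := by
    unfold entW
    rw [← Finset.sum_sub_distrib]
    refine Finset.sum_congr rfl fun i _ => ?_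
    rw [← Finset.sum_sub_distrib]
    exact Finset.sum_congr rfl fun e _ => by ring
  rw [h6]
  linarith

/-- linear costs of round `t`, when the rounds `j < t` with `flag j` form the history -/
noncomputable def LfW (D D' : ℕ → I → E → ℝ) (cap : ℝ) (a b : I → E → ℝ) (flag : ℕ → Prop)
    [DecidablePred flag] (t : ℕ) : I → E → ℝ :=
  fun i e => cap⁻¹ * (2 * (∑ j ∈ (range t).filter flag, D j i e + D t i e)
    - ∑ j ∈ (range t).filter flag, wclW cap a (D j) (D' j) i e) + a i e * b i e

lemma pair_LfW (D D' : ℕ → I → E → ℝ) (cap : ℝ) (a b : I → E → ℝ) (flag : ℕ → Prop)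
    [DecidablePred flag] (t : ℕ) (x : I → E → ℝ) :
    pair (LfW D D' cap a b flag t) x =
      cap⁻¹ * (2 * (∑ j ∈ (range t).filter flag, pair (D j) x + pair (D t) x)
        - ∑ j ∈ (range t).filter flag, pair (wclW cap a (D j) (D' j)) x)
      + pair (fun i e => a i e * b i e) x := by
  rw [← pair_sum_left, ← pair_sum_left, ← pair_add_left, ← pair_smul_left, ← pair_sub_left,
    ← pair_smul_left, ← pair_add_left]
  rfl

/-- lower bound of the regulariser -/
lemma regW_ge {a b x : I → E → ℝ} (ha : ∀ i e, 0 < a i e) (hx : ∀ i e, 0 ≤ x i e) :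
    -(∑ i, ∑ e, a i e * Real.exp (-(b i e))) ≤
      pair (fun i e => a i e * b i e) x + entW a x := by
  unfold pair entW
  rw [← Finset.sum_neg_distrib, ← Finset.sum_add_distrib]
  refine Finset.sum_le_sum fun i _ => ?_
  rw [← Finset.sum_neg_distrib, ← Finset.sum_add_distrib]
  refine Finset.sum_le_sum fun e _ => ?_
  have hg := coord_gibbs (x := x i e) (y := Real.exp (-(b i e))) (s := 0) (hx i e)
    (Real.exp_pos _).le (fun h => absurd h (Real.exp_pos _).ne') le_rfl zero_le_one
  rw [Real.log_exp] at hg
  have hg2 := mul_le_mul_of_nonneg_left hg (ha i e).le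
  nlinarith [hg2]

lemma entW_ind [DecidableEq E] (a : I → E → ℝ) (p : I → E) :
    entW a (H782.ind p) = -∑ i, a i (p i) := by
  unfold entW
  rw [← Finset.sum_neg_distrib]
  refine Finset.sum_congr rfl fun i _ => ?_
  rw [Finset.sum_eq_single (p i)]
  · unfold H782.ind
    simp
  · intro e _ he
    unfold H782.ind
    have : ¬ p i = e := fun h => he h.symm
    simp [this]
  · intro h
    exact absurd (Finset.mem_univ _) h

lemma Phi0_nonneg {a b : I → E → ℝ} (ha : ∀ i e, 0 < a i e) (p : I → E) :
    0 ≤ Phi0 a b p := by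
  classical
  have h1 := regW_ge (b := b) ha (x := H782.ind p) (fun i e => by
    unfold H782.ind
    split_ifs <;> norm_num)
  rw [entW_ind, pair_eq_val, val_ind] at h1
  have h2 : ∑ i, a i (p i) * (b i (p i) - 1) =
      ∑ i, a i (p i) * b i (p i) - ∑ i, a i (p i) := by
    rw [← Finset.sum_sub_distrib]
    exact Finset.sum_congr rfl fun i _ => by ring
  unfold Phi0
  rw [h2]
  linarith

/-- **Weighted regret lemma with separate end costs and sleeping rounds.** -/
theorem md_flagW [DecidableEq E] {PP : Set (I → E)} {a b : I → E → ℝ}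
    (ha : ∀ i e, 0 < a i e) {flag : ℕ → Prop} [DecidablePred flag] {N : ℕ}
    {D D' : ℕ → I → E → ℝ} (hD : ∀ t, t < N → flag t → ∀ i e, D' t i e ≤ D t i e)
    {cap : ℝ} (hcap : 0 < cap) {xh q : ℕ → I → E → ℝ} {e1 e2 : ℝ}
    (hmem : ∀ t, t < N → flag t → xh t ∈ H782.Flow PP)
    (hsol : ∀ t, t < N → flag t → SolvedW PP a (LfW D D' cap a b flag t) (xh t) (q t) e1 e2)
    {p : I → E} (hp : p ∈ PP) :
    ∑ t ∈ (range N).filter flag, pair (wclW cap a (D t) (D' t)) (H782.ind p) ≤
      2 * ∑ t ∈ (range N).filter flag, (pair (D t) (H782.ind p) - pair (D' t) (xh t))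
      + cap * Phi0 a b p
      + (((range N).filter flag).card : ℝ) * (cap * (e1 + 3 * e2)) := by
  set B0 : ℝ := ∑ i, ∑ e, a i e * Real.exp (-(b i e)) with hB0
  set err : ℝ := e1 + 3 * e2 with herr
  have hci : 0 < cap⁻¹ := inv_pos.2 hcap
  have hmain : ∀ t, t ≤ N → ∀ x ∈ H782.Flow PP,
      -B0 + cap⁻¹ * (2 * ∑ j ∈ (range t).filter flag, pair (D' j) (xh j))
        - (((range t).filter flag).card : ℝ) * err ≤
      cap⁻¹ * (2 * ∑ j ∈ (range t).filter flag, pair (D j) x
        - ∑ j ∈ (range t).filter flag, pair (wclW cap a (D j) (D' j)) x)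
        + pair (fun i e => a i e * b i e) x + entW a x := by
    intro t
    induction t with
    | zero =>
      intro _ x hx
      have := regW_ge (b := b) ha (flow_nonneg hx)
      simp only [Finset.range_zero, Finset.filter_empty, Finset.sum_empty, mul_zero, sub_zero,
        Finset.card_empty, Nat.cast_zero, zero_mul, add_zero, zero_add]
      exact this
    | succ t ih =>
      intro ht x hx
      have htN : t < N := ht
      rw [Finset.range_add_one, Finset.filter_insert]
      by_cases hf : flag t
      · rw [if_pos hf]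
        have hnot : t ∉ (range t).filter flag := by simp
        rw [Finset.sum_insert hnot, Finset.sum_insert hnot, Finset.sum_insert hnot,
          Finset.card_insert_of_notMem hnot]
        have hs0 : ∀ i e, 0 ≤ cap⁻¹ * wclW cap a (D t) (D' t) i e := fun i e =>
          mul_nonneg hci.le (wclW_nonneg hcap ha (hD t htN hf) i e)
        have hs1 : ∀ i e, cap⁻¹ * wclW cap a (D t) (D' t) i e ≤ a i e := fun i e =>
          inv_wclW_le hcap a _ _ i e
        have hk := keyW ha (hsol t htN hf) hs0 hs1 hx
        rw [pair_smul_left, pair_smul_left, pair_LfW, pair_LfW] at hk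
        have h2 : pair (wclW cap a (D t) (D' t)) (xh t) ≤
            pair (D t) (xh t) - pair (D' t) (xh t) := by
          rw [← pair_sub_left]
          exact pair_le_pair (flow_nonneg (hmem t htN hf)) fun i e => min_le_left _ _
        have h3 := mul_le_mul_of_nonneg_left h2 hci.le
        have h4 := ih htN.le (xh t) (hmem t htN hf)
        push_cast
        nlinarith [hk, h3, h4]
      · rw [if_neg hf]
        exact ih htN.le x hx
  have h1 := hmain N le_rfl _ (subset_convexHull ℝ _ ⟨p, hp, rfl⟩)
  have h3 := mul_le_mul_of_nonneg_left h1 hcap.le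
  rw [entW_ind] at h3
  have hc : pair (fun i e => a i e * b i e) (H782.ind p) = ∑ i, a i (p i) * b i (p i) := by
    rw [pair_eq_val, val_ind]
  rw [hc] at h3
  set SD := ∑ j ∈ (range N).filter flag, pair (D j) (H782.ind p) with hSD
  set SW := ∑ j ∈ (range N).filter flag, pair (wclW cap a (D j) (D' j)) (H782.ind p) with hSW
  set SE := ∑ j ∈ (range N).filter flag, pair (D' j) (xh j) with hSE
  have h4 : cap * (-B0 + cap⁻¹ * (2 * SE) - (((range N).filter flag).card : ℝ) * err) =
      -(cap * B0) + 2 * SE - (((range N).filter flag).card : ℝ) * (cap * err) := by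
    field_simp
  have h5 : cap * (cap⁻¹ * (2 * SD - SW) + ∑ i, a i (p i) * b i (p i) + -∑ i, a i (p i)) =
      2 * SD - SW + cap * (∑ i, a i (p i) * b i (p i) - ∑ i, a i (p i)) := by
    field_simp
    ring
  rw [h4, h5] at h3
  have h6 : Phi0 a b p = (∑ i, a i (p i) * b i (p i) - ∑ i, a i (p i)) + B0 := by
    unfold Phi0
    rw [← Finset.sum_sub_distrib]
    congr 1
    exact Finset.sum_congr rfl fun i _ => by ring
  rw [Finset.sum_sub_distrib, h6]
  linarith

/-- **Splitting into runs, abstract form.** If every run (start block `j1`, phase `ph`, end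
block `b`) has `F`-sum at most `C`, then the blocks of `A` have total `F`-sum at most
`(1 + number of active blocks outside A) * h * C`. -/
theorem start_abs {o len h : ℕ} (hlen : 0 < len) (hh : 0 < h) {act A : ℕ → Prop}
    [DecidablePred act] [DecidablePred A] (hA : ∀ j, A j → act j) {N : ℕ} {F : ℕ → ℝ} {C : ℝ}
    (hC : 0 ≤ C)
    (hrun : ∀ j1 ph b, act j1 → b ≤ N → (∀ j, j1 ≤ j → j < b → act j → A j) →
      ∑ t ∈ (range (b * len - o)).filter (flg o len h act j1 ph), F t ≤ C) :
    ∑ j ∈ (range N).filter A, ∑ t ∈ (range (N * len)).filter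
        (fun t => blk o len t = j ∧ win o len h t), F t ≤
      (1 + (((range N).filter fun j => act j ∧ ¬ A j).card : ℝ)) * (h * C) := by
  set B : ℕ → Finset ℕ := fun j =>
    (range (N * len)).filter (fun t => blk o len t = j ∧ win o len h t) with hB
  have key0 : ∀ a b, b ≤ N → (∀ j, a ≤ j → j < b → act j → A j) →
      ∑ j ∈ (Ico a b).filter A, ∑ t ∈ B j, F t ≤ h * C := by
    intro a b hb hrun'
    have hC' : 0 ≤ h * C := by positivity
    by_cases hex : ∃ j, a ≤ j ∧ j < b ∧ act j
    · -- the start block
      set j1 := Nat.find hex with hj1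
      obtain ⟨h1a, h1b, h1c⟩ := Nat.find_spec hex
      rw [← hj1] at h1a h1b h1c
      have hmin1 : ∀ j, a ≤ j → j < b → act j → j1 ≤ j := fun j ha hb' hc =>
        Nat.find_min' hex ⟨ha, hb', hc⟩
      have hsum := Finset.sum_le_sum fun ph (_ : ph ∈ range h) =>
        hrun j1 ph b h1c hb fun j h1 h2 h3 => hrun' j (h1a.trans h1) h2 h3
      rw [Finset.sum_const, Finset.card_range, nsmul_eq_mul] at hsum
      refine le_trans (le_of_eq ?_) hsum
      -- both sides are the sum over the rounds of the run
      have e1 : ∑ ph ∈ range h, ∑ t ∈ (range (b * len - o)).filter (flg o len h act j1 ph), F t =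
          ∑ t ∈ (range (b * len - o)).filter
            (fun t => win o len h t ∧ j1 ≤ blk o len t ∧ act (blk o len t)), F t := by
        rw [← Finset.sum_fiberwise_of_maps_to (s := (range (b * len - o)).filter
            (fun t => win o len h t ∧ j1 ≤ blk o len t ∧ act (blk o len t)))
            (t := range h) (g := fun t => t % h)
            (fun t _ => Finset.mem_range.2 (Nat.mod_lt _ hh))]
        refine Finset.sum_congr rfl fun ph _ => ?_
        refine Finset.sum_congr ?_ fun _ _ => rfl
        ext t
        simp only [Finset.mem_filter, Finset.mem_range, flg]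
        tauto
      have e2 : ∑ j ∈ (Ico a b).filter A, ∑ t ∈ B j, F t =
          ∑ t ∈ (range (b * len - o)).filter
            (fun t => win o len h t ∧ j1 ≤ blk o len t ∧ act (blk o len t)), F t := by
        rw [← Finset.sum_fiberwise_of_maps_to (s := (range (b * len - o)).filter
            (fun t => win o len h t ∧ j1 ≤ blk o len t ∧ act (blk o len t)))
            (t := (Ico a b).filter A) (g := fun t => blk o len t)]
        · refine Finset.sum_congr rfl fun j hj => ?_
          obtain ⟨hj1', hjA⟩ := Finset.mem_filter.1 hj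
          obtain ⟨hja, hjb⟩ := Finset.mem_Ico.1 hj1'
          refine Finset.sum_congr ?_ fun _ _ => rfl
          ext t
          simp only [Finset.mem_filter, Finset.mem_range, hB]
          constructor
          · rintro ⟨_, h2, h3⟩
            have hlt : t < b * len - o := by
              have : blk o len t < b := by rw [h2]; exact hjb
              unfold blk at this
              rw [Nat.div_lt_iff_lt_mul hlen] at this
              omega
            exact ⟨⟨hlt, h3, by rw [h2]; exact hmin1 j hja hjb (hA j hjA),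
              by rw [h2]; exact hA j hjA⟩, h2⟩
          · rintro ⟨⟨h1, h2, _, _⟩, h5⟩
            refine ⟨?_, h5, h2⟩
            have : b * len ≤ N * len := Nat.mul_le_mul_right _ hb
            omega
        · intro t ht
          simp only [Finset.mem_filter, Finset.mem_range] at ht
          obtain ⟨h1, _, h3, h4⟩ := ht
          have hlt : blk o len t < b := by
            unfold blk
            rw [Nat.div_lt_iff_lt_mul hlen]
            omega
          exact Finset.mem_filter.2 ⟨Finset.mem_Ico.2 ⟨h1a.trans h3, hlt⟩,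
            hrun' _ (h1a.trans h3) hlt h4⟩
      rw [e1, e2]
    · have : (Ico a b).filter A = ∅ := by
        refine Finset.filter_eq_empty_iff.2 fun j hj hAj => ?_
        obtain ⟨h1, h2⟩ := Finset.mem_Ico.1 hj
        exact hex ⟨j, h1, h2, hA j hAj⟩
      rw [this, Finset.sum_empty]
      exact hC'
  -- cut the blocks ≥ N off
  have hruns := sum_runs (act := fun j => act j ∧ j < N) (A := fun j => A j ∧ j < N)
    (T := fun j => ∑ t ∈ B j, F t)
    (C := h * C) (by positivity) (fun a b hrun' => by
      have hcut : (Ico a b).filter (fun j => A j ∧ j < N) =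
          (Ico a (min b N)).filter A := by
        ext j
        simp only [Finset.mem_filter, Finset.mem_Ico, lt_min_iff]
        tauto
      rw [hcut]
      refine key0 a (min b N) (min_le_right _ _) fun j h1 h2 h3 => ?_
      rw [lt_min_iff] at h2
      exact (hrun' j h1 h2.1 ⟨h3, h2.2⟩).1) N
  have f1 : (range N).filter (fun j => A j ∧ j < N) = (range N).filter A :=
    Finset.filter_congr fun j hj => by
      have := Finset.mem_range.1 hj
      tauto
  have f2 : (range N).filter (fun j => (act j ∧ j < N) ∧ ¬ (A j ∧ j < N)) =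
      (range N).filter (fun j => act j ∧ ¬ A j) :=
    Finset.filter_congr fun j hj => by
      have := Finset.mem_range.1 hj
      tauto
  rw [f1, f2] at hruns
  exact hruns

/-- Linear costs of round `t` of the weighted instance with start block `j1`. -/
noncomputable def LstW (D : ℕ → I → E → ℝ) (cap : ℝ) (a b : I → E → ℝ) (o len h : ℕ)
    (act : ℕ → Prop) [DecidablePred act] (j1 t : ℕ) : I → E → ℝ :=
  fun i e => cap⁻¹ * (2 * (∑ t' ∈ hist o len h act j1 t, D t' i e + D t i e)
    - ∑ t' ∈ hist o len h act j1 t, wclW cap a (D t') (D (t' + h)) i e) + a i e * b i e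

lemma hist_eq {o len h : ℕ} {act : ℕ → Prop} [DecidablePred act] {j1 ph t : ℕ}
    (hf : flg o len h act j1 ph t) :
    hist o len h act j1 t = (range t).filter (flg o len h act j1 ph) := by
  obtain ⟨h1, h2, h3, h4⟩ := hf
  unfold hist
  refine Finset.filter_congr fun t' _ => ?_
  unfold flg
  constructor
  · rintro ⟨a, b, c⟩
    refine ⟨a.trans h1, b, ?_⟩
    rcases c with c | c
    · exact c
    · rw [c]; exact ⟨h3, h4⟩
  · rintro ⟨a, b, c⟩
    exact ⟨a.trans h1.symm, b, Or.inl c⟩

lemma LstW_eq (D : ℕ → I → E → ℝ) (cap : ℝ) (a b : I → E → ℝ) {o len h : ℕ}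
    {act : ℕ → Prop} [DecidablePred act] {j1 ph t : ℕ} (hf : flg o len h act j1 ph t) :
    LstW D cap a b o len h act j1 t =
      LfW D (fun t => D (t + h)) cap a b (flg o len h act j1 ph) t := by
  unfold LstW LfW
  rw [hist_eq hf]

/-- **Weighted (H3b) for all sets of active blocks, from one weighted instance per start
block.** -/
theorem start_blocksW [DecidableEq E] {PP : Set (I → E)} {a b : I → E → ℝ}
    (ha : ∀ i e, 0 < a i e) {D : ℕ → I → E → ℝ} (hD : ∀ t i e, D (t + 1) i e ≤ D t i e)
    {cap : ℝ} (hcap : 0 < cap) {o len h : ℕ} (hlen : 0 < len) (hh : 0 < h)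
    {act A : ℕ → Prop} [DecidablePred act] [DecidablePred A] (hA : ∀ j, A j → act j) {N : ℕ}
    {xh q : ℕ → ℕ → I → E → ℝ} {e1 e2 : ℝ}
    (hmem : ∀ j1 t, blk o len t < N → win o len h t → A (blk o len t) → act j1 →
      j1 ≤ blk o len t → xh j1 t ∈ H782.Flow PP)
    (hsol : ∀ j1 t, blk o len t < N → win o len h t → A (blk o len t) → act j1 →
      j1 ≤ blk o len t →
      SolvedW PP a (LstW D cap a b o len h act j1 t) (xh j1 t) (q j1 t) e1 e2)
    {p : I → E} (hp : p ∈ PP) (hP0 : 0 ≤ Phi0 a b p) {G : ℕ → ℝ}
    (hG : ∀ j1 t, blk o len t < N → win o len h t → A (blk o len t) → act j1 →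
      j1 ≤ blk o len t → pv (D t) p - pair (D (t + h)) (xh j1 t) ≤ G t) :
    ∑ j ∈ (range N).filter A, ∑ t ∈ (range (N * len)).filter
        (fun t => blk o len t = j ∧ win o len h t), pv (wclW cap a (D t) (D (t + h))) p ≤
      2 * ∑ j ∈ (range N).filter A, ∑ t ∈ (range (N * len)).filter
        (fun t => blk o len t = j ∧ win o len h t), G t
      + (1 + (((range N).filter fun j => act j ∧ ¬ A j).card : ℝ))
        * (h * (cap * Phi0 a b p))
      + ∑ j ∈ (range N).filter A, (((range (N * len)).filter
        (fun t => blk o len t = j ∧ win o len h t)).card : ℝ) * (cap * (e1 + 3 * e2)) := by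
  have hpair : ∀ F : I → E → ℝ, pair F (H782.ind p) = pv F p := fun F => by
    rw [pair_eq_val, val_ind]
    rfl
  obtain ⟨err, herr⟩ : ∃ e, e = cap * (e1 + 3 * e2) := ⟨_, rfl⟩
  rw [← herr]
  have habs := start_abs (o := o) hlen hh hA (N := N)
    (F := fun t => pv (wclW cap a (D t) (D (t + h))) p - 2 * G t - err)
    (C := cap * Phi0 a b p) (mul_nonneg hcap.le hP0)
    (fun j1 ph b' hj1 hb hrun => by
      have hlt : ∀ t, t < b' * len - o → blk o len t < b' := by
        intro t ht
        unfold blk
        rw [Nat.div_lt_iff_lt_mul hlen]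
        omega
      have hcond : ∀ t, t < b' * len - o → flg o len h act j1 ph t →
          blk o len t < N ∧ win o len h t ∧ A (blk o len t) ∧ j1 ≤ blk o len t := by
        rintro t ht ⟨_, hw, hj, hact⟩
        exact ⟨(hlt t ht).trans_le hb, hw, hrun _ hj (hlt t ht) hact, hj⟩
      have hmd := md_flagW (N := b' * len - o) (flag := flg o len h act j1 ph) (b := b)
        (D := D) (D' := fun t => D (t + h)) (xh := xh j1) (q := q j1) ha
        (fun t _ _ i e => anti_nat hD i e t h) hcap
        (fun t ht hf => by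
          obtain ⟨c1, c2, c3, c4⟩ := hcond t ht hf
          exact hmem j1 t c1 c2 c3 hj1 c4)
        (fun t ht hf => by
          obtain ⟨c1, c2, c3, c4⟩ := hcond t ht hf
          have := hsol j1 t c1 c2 c3 hj1 c4
          rwa [LstW_eq D cap a b hf] at this)
        hp
      have hGs : ∑ t ∈ (range (b' * len - o)).filter (flg o len h act j1 ph),
          (pair (D t) (H782.ind p) - pair (D (t + h)) (xh j1 t)) ≤
          ∑ t ∈ (range (b' * len - o)).filter (flg o len h act j1 ph), G t := by
        refine Finset.sum_le_sum fun t ht => ?_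
        obtain ⟨ht1, ht2⟩ := Finset.mem_filter.1 ht
        obtain ⟨c1, c2, c3, c4⟩ := hcond t (Finset.mem_range.1 ht1) ht2
        rw [hpair]
        exact hG j1 t c1 c2 c3 hj1 c4
      have e1' : ∑ t ∈ (range (b' * len - o)).filter (flg o len h act j1 ph),
          pair (wclW cap a (D t) (D (t + h))) (H782.ind p) =
          ∑ t ∈ (range (b' * len - o)).filter (flg o len h act j1 ph),
            pv (wclW cap a (D t) (D (t + h))) p :=
        Finset.sum_congr rfl fun t _ => hpair _
      rw [e1', ← herr] at hmd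
      rw [Finset.sum_sub_distrib, Finset.sum_sub_distrib, ← Finset.mul_sum,
        Finset.sum_const, nsmul_eq_mul]
      linarith)
  simp only [Finset.sum_sub_distrib, ← Finset.mul_sum, Finset.sum_const, nsmul_eq_mul] at habs
  linarith

/-- Drop in the windows `[b, b+h)` inside the block `[b0, b0 + len)`, over the rows whose drop
in the whole block is at most `cap * a`, divided by the number of rows. -/
noncomputable def lhsW (D : ℕ → I → E → ℝ) (p : I → E) (a : I → E → ℝ) (cap : ℝ)
    (h len b0 : ℕ) : ℝ :=
  (∑ i ∈ range (len + 1 - h), ∑ u,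
    (if D b0 u (p u) - D (b0 + len) u (p u) ≤ cap * a u (p u) then
      D (b0 + i) u (p u) - D (b0 + i + h) u (p u) else 0)) / (Fintype.card I : ℝ)

/-- **Weighted (H3b), averaged form, greedy solver of `H763.GreedyW`.** -/
theorem h3b_startW [Nonempty I] [Nonempty E] [DecidableEq E] {PP : Set (I → E)}
    {a b : I → E → ℝ} (ha : ∀ i e, 0 < a i e) {Am : ℝ} (haA : ∀ i e, a i e ≤ Am)
    {D : ℕ → I → E → ℝ} (hD : ∀ t i e, D (t + 1) i e ≤ D t i e) {cap : ℝ} (hcap : 0 < cap)
    {o len h : ℕ} (hh : 0 < h) (hhl : h ≤ len) {act A : ℕ → Prop} [DecidablePred act]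
    [DecidablePred A] (hA : ∀ j, A j → act j) {N : ℕ} (hAo : ∀ j, A j → o ≤ j * len)
    {T s : ℕ} (hs : 0 < s) (hsT : s < T) {η : ℝ} (hη : 0 ≤ η) {pk : ℕ → ℕ → ℕ → I → E}
    (hpk : ∀ j1 t, blk o len t < N → win o len h t → A (blk o len t) → act j1 →
      j1 ≤ blk o len t →
      GreedyW a (LstW D cap a b o len h act j1 t) PP T ((Fintype.card I : ℝ) * η) (pk j1 t))
    {p : I → E} (hp : p ∈ PP) {phi : ℝ}
    (hphi : Phi0 a b p ≤ (Fintype.card I : ℝ) * phi)
    {G : ℕ → ℝ} (hG0 : ∀ t, 0 ≤ G t) {del : ℝ} (hdel : 0 ≤ del)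
    (hG : ∀ j1 t, blk o len t < N → win o len h t → A (blk o len t) → act j1 →
      j1 ≤ blk o len t →
      (pv (D t) p - val (D (t + h)) (xx (pk j1 t) T)) / (Fintype.card I : ℝ) ≤ G t + del) :
    ∑ j ∈ (range N).filter A, lhsW D p a cap h len (j * len - o) ≤
      2 * ∑ j ∈ (range N).filter A, ∑ i ∈ range len, G (j * len - o + i)
      + (1 + (((range N).filter fun j => act j ∧ ¬ A j).card : ℝ)) * (h * (cap * phi))
      + (((range N).filter A).card : ℝ) * (len * (2 * del
          + cap * (Am * errW (Fintype.card E) T s + (T / s + 1) * η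
            + 3 * (Am * (Fintype.card E / T))))) := by
  have hlen : 0 < len := lt_of_lt_of_le hh hhl
  have hm : 0 < Fintype.card E := Fintype.card_pos
  have hcI : (0 : ℝ) < (Fintype.card I : ℝ) := by exact_mod_cast Fintype.card_pos
  have hT : 0 < T := by omega
  have hTR : (0 : ℝ) < T := by exact_mod_cast hT
  have hsR : (0 : ℝ) < s := by exact_mod_cast hs
  have hsTR : (s : ℝ) < T := by exact_mod_cast hsT
  have hAm : 0 < Am := by
    obtain ⟨i0⟩ := (inferInstance : Nonempty I)
    obtain ⟨e0⟩ := (inferInstance : Nonempty E)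
    exact (ha i0 e0).trans_le (haA i0 e0)
  set er : ℝ := Am * errW (Fintype.card E) T s + (T / s + 1) * η
            + 3 * (Am * (Fintype.card E / T)) with her
  have her0 : 0 ≤ er := by
    have h1 : 0 ≤ errW (Fintype.card E) T s := by
      unfold errW
      have hl1 : 0 ≤ Real.log ((T : ℝ) + (Fintype.card E : ℕ)) := by
        apply Real.log_nonneg
        have : (1 : ℝ) ≤ T := by exact_mod_cast hT
        have h2 : (0 : ℝ) ≤ (Fintype.card E : ℕ) := by positivity
        linarith
      have hl2 : 0 ≤ Real.log (T : ℝ) := Real.log_natCast_nonneg T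
      have hd : 0 < (T : ℝ) - s := by linarith
      positivity
    rw [her]
    positivity
  have hmain := start_blocksW (a := a) (b := b) ha hD hcap (o := o) hlen hh hA (N := N)
    (xh := fun j1 t => xx (pk j1 t) T) (q := fun j1 t => qs (pk j1 t) T)
    (e1 := Fintype.card I * (Am * errW (Fintype.card E) T s)
      + (T / s + 1) * ((Fintype.card I : ℝ) * η))
    (e2 := Fintype.card I * (Am * (Fintype.card E / T)))
    (fun j1 t c1 c2 c3 c4 c5 => xx_mem_flow hT (hpk j1 t c1 c2 c3 c4 c5).mem)
    (fun j1 t c1 c2 c3 c4 c5 => H763.solvedW_of_greedyW (hpk j1 t c1 c2 c3 c4 c5)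
      (fun i e => (ha i e).le) haA hm hs hsT (by positivity))
    hp (Phi0_nonneg ha p)
    (G := fun t => (Fintype.card I : ℝ) * (G t + del))
    (fun j1 t c1 c2 c3 c4 c5 => by
      have := hG j1 t c1 c2 c3 c4 c5
      rw [div_le_iff₀ hcI] at this
      rw [pair_eq_val]
      linarith)
  have herr : Fintype.card I * (Am * errW (Fintype.card E) T s)
      + (T / s + 1) * ((Fintype.card I : ℝ) * η)
      + 3 * (Fintype.card I * (Am * (Fintype.card E / T))) = (Fintype.card I : ℝ) * er := by
    rw [her]; ring
  rw [herr] at hmain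
  have hfull : ∀ j ∈ (range N).filter A, j < N ∧ o ≤ j * len := fun j hj =>
    ⟨Finset.mem_range.1 (Finset.mem_filter.1 hj).1, hAo j (Finset.mem_filter.1 hj).2⟩
  have r1 : ∀ f : ℕ → ℝ, ∑ j ∈ (range N).filter A, ∑ t ∈ (range (N * len)).filter
        (fun t => blk o len t = j ∧ win o len h t), f t =
      ∑ j ∈ (range N).filter A, ∑ i ∈ range (len + 1 - h), f (j * len - o + i) := fun f =>
    Finset.sum_congr rfl fun j hj => sum_block f hlen hh hhl (hfull j hj).1 (hfull j hj).2
  have r2 : ∀ j ∈ (range N).filter A, (((range (N * len)).filter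
      (fun t => blk o len t = j ∧ win o len h t)).card : ℝ) = ((len + 1 - h : ℕ) : ℝ) := by
    intro j hj
    have := sum_block (fun _ => (1 : ℕ)) hlen hh hhl (hfull j hj).1 (hfull j hj).2
    simp only [Finset.sum_const, smul_eq_mul, mul_one, Finset.card_range] at this
    rw [this]
  have r3 : ∑ j ∈ (range N).filter A, (((range (N * len)).filter
      (fun t => blk o len t = j ∧ win o len h t)).card : ℝ)
        * (cap * ((Fintype.card I : ℝ) * er)) =
      ∑ j ∈ (range N).filter A, ((len + 1 - h : ℕ) : ℝ)
        * (cap * ((Fintype.card I : ℝ) * er)) :=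
    Finset.sum_congr rfl fun j hj => by rw [r2 j hj]
  rw [r1, r1, r3] at hmain
  -- left side
  have hL : ∑ j ∈ (range N).filter A, lhsW D p a cap h len (j * len - o) ≤
      (∑ j ∈ (range N).filter A, ∑ i ∈ range (len + 1 - h),
        pv (wclW cap a (D (j * len - o + i)) (D (j * len - o + i + h))) p)
        / (Fintype.card I : ℝ) := by
    rw [Finset.sum_div]
    refine Finset.sum_le_sum fun j _ => ?_
    unfold lhsW
    refine div_le_div_of_nonneg_right ?_ hcI.le
    refine Finset.sum_le_sum fun i hi => ?_
    have hi' := Finset.mem_range.1 hi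
    unfold pv
    refine Finset.sum_le_sum fun u _ => ?_
    show _ ≤ min (D (j * len - o + i) u (p u) - D (j * len - o + i + h) u (p u))
      (cap * a u (p u))
    have h1 : D (j * len - o + i) u (p u) ≤ D (j * len - o) u (p u) := anti_nat hD u (p u) _ i
    have h2 : D (j * len - o + len) u (p u) ≤ D (j * len - o + i + h) u (p u) := by
      have := anti_nat hD u (p u) (j * len - o + i + h) (len - (i + h))
      have he : j * len - o + i + h + (len - (i + h)) = j * len - o + len := by omega
      rwa [he] at this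
    have h3 : D (j * len - o + i + h) u (p u) ≤ D (j * len - o + i) u (p u) :=
      anti_nat hD u (p u) _ h
    split_ifs with hc
    · exact le_min le_rfl (by linarith)
    · exact le_min (by linarith) (mul_nonneg hcap.le (ha _ _).le)
  refine hL.trans ?_
  rw [div_le_iff₀ hcI]
  refine hmain.trans ?_
  -- right side
  have hGle : ∑ j ∈ (range N).filter A, ∑ i ∈ range (len + 1 - h),
        ((Fintype.card I : ℝ) * (G (j * len - o + i) + del)) ≤
      (Fintype.card I : ℝ) * (∑ j ∈ (range N).filter A, ∑ i ∈ range len, G (j * len - o + i)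
        + (((range N).filter A).card : ℝ) * (len * del)) := by
    have : ∀ j ∈ (range N).filter A, ∑ i ∈ range (len + 1 - h),
        ((Fintype.card I : ℝ) * (G (j * len - o + i) + del)) ≤
        (Fintype.card I : ℝ) * (∑ i ∈ range len, G (j * len - o + i) + len * del) := by
      intro j _
      rw [← Finset.mul_sum]
      refine mul_le_mul_of_nonneg_left ?_ hcI.le
      rw [Finset.sum_add_distrib, Finset.sum_const, Finset.card_range, nsmul_eq_mul]
      refine add_le_add ?_ ?_
      · exact Finset.sum_le_sum_of_subset_of_nonneg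
          (Finset.range_subset_range.2 (by omega)) fun i _ _ => hG0 _
      · refine mul_le_mul_of_nonneg_right ?_ hdel
        exact_mod_cast (by omega : len + 1 - h ≤ len)
    refine (Finset.sum_le_sum this).trans (le_of_eq ?_)
    rw [← Finset.mul_sum, Finset.sum_add_distrib, Finset.sum_const, nsmul_eq_mul]
  have hcard : ∑ j ∈ (range N).filter A, (((len + 1 - h : ℕ) : ℝ)
      * (cap * ((Fintype.card I : ℝ) * er))) ≤
      (((range N).filter A).card : ℝ) * (len * (cap * ((Fintype.card I : ℝ) * er))) := by
    rw [Finset.sum_const, nsmul_eq_mul]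
    refine mul_le_mul_of_nonneg_left ?_ (by positivity)
    refine mul_le_mul_of_nonneg_right ?_ (by positivity)
    exact_mod_cast (by omega : len + 1 - h ≤ len)
  have hphi' : (1 + (((range N).filter fun j => act j ∧ ¬ A j).card : ℝ))
      * (h * (cap * Phi0 a b p)) ≤ (1 + (((range N).filter fun j => act j ∧ ¬ A j).card : ℝ))
      * (h * (cap * ((Fintype.card I : ℝ) * phi))) := by
    refine mul_le_mul_of_nonneg_left ?_ (by positivity)
    refine mul_le_mul_of_nonneg_left ?_ (by positivity)
    exact mul_le_mul_of_nonneg_left hphi hcap.le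
  nlinarith [hGle, hcard, hphi']

/-- Constant offset `b ≥ log (|E| * Am)`, weights in `[1, Am]`: the start cost of a path is at
most `b` times its weight. -/
theorem Phi0_const [Nonempty E] {a : I → E → ℝ} (ha1 : ∀ i e, 1 ≤ a i e) {Am : ℝ}
    (haA : ∀ i e, a i e ≤ Am) {c : ℝ} (hc : (Fintype.card E : ℝ) * Am ≤ Real.exp c)
    (p : I → E) : Phi0 a (fun _ _ => c) p ≤ c * ∑ i, a i (p i) := by
  unfold Phi0
  have h1 : ∑ i, ∑ e, a i e * Real.exp (-c) ≤ ∑ i : I, (1 : ℝ) := by
    refine Finset.sum_le_sum fun i _ => ?_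
    rw [← Finset.sum_mul, Real.exp_neg, ← div_eq_mul_inv, div_le_one (Real.exp_pos c)]
    refine le_trans ?_ hc
    refine (Finset.sum_le_sum fun e _ => haA i e).trans (le_of_eq ?_)
    rw [Finset.sum_const, Finset.card_univ, nsmul_eq_mul]
  have h2 : ∑ i : I, (1 : ℝ) ≤ ∑ i, a i (p i) := Finset.sum_le_sum fun i _ => ha1 i (p i)
  have h3 : ∑ i, a i (p i) * (c - 1) = c * ∑ i, a i (p i) - ∑ i, a i (p i) := by
    rw [← Finset.sum_mul]
    ring
  rw [h3]
  linarith

end Vale.Agent.P315.H519
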