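import Vale.Agent.P315.H155.MachW
import Vale.Agent.P315.H763.PlugA
import Vale.Agent.P315.H869.Units

/-!
P315, milestone 2 (helper519): pure-number hypotheses of the weighted region theorem for the
machines of `H155/MachW`: start cost of the comparison route, caps, edge weights.
-/

set_option autoImplicit false

open Finset

namespace Vale.Agent.P315.H519

open H155 H763 H220 H801
open Vale.Agent.P315.H95 (cl)
open H869.Units (wt)

variable {K g wm ca : ℕ} {LB : List ℕ}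

/-- Weight of an edge in a unit row. -/
theorem wtW_unit {i x y z : ℕ} (h1 : 1 ≤ i) (h2 : i ≤ K) (hl : labX K g LB y = z)
    (hz : cl z ≤ ca + wm) : wtW K g wm ca LB i x y = wt ca z := by
  unfold wtW kxW wt
  rw [if_pos ⟨h1, h2⟩, hl, min_eq_left (by omega)]

theorem wtW_shift {i x y : ℕ} (h : ¬ (1 ≤ i ∧ i ≤ K)) : wtW K g wm ca LB i x y = 1 := by
  unfold wtW
  rw [if_neg h]

theorem rhW_unit {i x y z : ℕ} (h1 : 1 ≤ i) (h2 : i ≤ K) (hl : labX K g LB y = z)
    (hz : cl z ≤ ca + wm) :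
    rhW K g wm ca LB i x y = (cl z - ca) + 2 * Nat.size (pW K g LB) := by
  unfold rhW kxW
  rw [if_pos ⟨h1, h2⟩, hl, min_eq_left (by omega)]

theorem rhW_shift {i x y : ℕ} (h : ¬ (1 ≤ i ∧ i ≤ K)) :
    rhW K g wm ca LB i x y = 2 * Nat.size (pW K g LB) := by
  unfold rhW
  rw [if_neg h, zero_add]

theorem card_le_exp_size (p : ℕ) :
    (Fintype.card (Fin p × Fin p) : ℝ) ≤ Real.exp ((2 * Nat.size p : ℕ) : ℝ) := by
  rw [Fintype.card_prod, Fintype.card_fin]
  have h1 : p < 2 ^ Nat.size p := Nat.lt_size_self p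
  have h2 : p * p ≤ 2 ^ (2 * Nat.size p) := by
    rw [two_mul, pow_add]
    exact Nat.mul_le_mul h1.le h1.le
  have h3 : ((p * p : ℕ) : ℝ) ≤ (2 : ℝ) ^ (2 * Nat.size p) := by exact_mod_cast h2
  refine h3.trans ?_
  have h4 : (2 : ℝ) ≤ Real.exp 1 := by
    have := Real.add_one_le_exp (1 : ℝ)
    linarith
  calc (2 : ℝ) ^ (2 * Nat.size p) ≤ (Real.exp 1) ^ (2 * Nat.size p) :=
        pow_le_pow_left₀ (by norm_num) h4 _
    _ = _ := by rw [← Real.exp_nat_mul, mul_one]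

/-- The reference mass of every row is at most one. -/
theorem row_massW_le (i : ℕ) :
    ∑ e : Fin (pW K g LB) × Fin (pW K g LB), (wtW K g wm ca LB i e.1 e.2 : ℝ) *
      Real.exp (-(rhW K g wm ca LB i e.1 e.2 : ℝ)) ≤ 1 := by
  have h := row_mass_le (fun e : Fin (pW K g LB) × Fin (pW K g LB) =>
    if 1 ≤ i ∧ i ≤ K then kxW wm ca (labX K g LB e.2) else 0) (2 * Nat.size (pW K g LB))
    (card_le_exp_size _)
  refine le_trans (le_of_eq (Finset.sum_congr rfl fun e _ => ?_)) h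
  unfold wtW rhW
  split_ifs with h1
  · push_cast
    rfl
  · push_cast
    rw [pow_zero]

/-- **(phi)** Start cost of the comparison route. -/
theorem phiW_le {f xs : ℕ → ℕ} (hx : ∀ u < K, labX K g LB (f (u + 2)) = xs u)
    (hc : ∀ u < K, cl (xs u) ≤ ca + wm) (h1 : ∑ u ∈ range K, wt ca (xs u) ≤ 9 * K)
    (h2 : ∑ u ∈ range K, wt ca (xs u) * (cl (xs u) - ca) ≤ 9 * K * wm)
    {p : Fin (K + 2) → Fin (pW K g LB) × Fin (pW K g LB)}
    (hp : ∀ i : Fin (K + 2), ((p i).2 : ℕ) = f (i + 1)) :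
    Phi0 (fun (i : Fin (K + 2)) (e : Fin (pW K g LB) × Fin (pW K g LB)) =>
        (wtW K g wm ca LB i e.1 e.2 : ℝ))
      (fun i e => (rhW K g wm ca LB i e.1 e.2 : ℝ)) p ≤
      (Fintype.card (Fin (K + 2)) : ℝ) * ((9 * wm + 18 * Nat.size (pW K g LB) + 1 : ℕ) : ℝ) := by
  set z := Nat.size (pW K g LB) with hz
  have hX : ∑ i : Fin (K + 2), (wtW K g wm ca LB i (p i).1 (p i).2 : ℝ) *
      (rhW K g wm ca LB i (p i).1 (p i).2 : ℝ) ≤
      (((K + 2) * (9 * wm + 18 * z) : ℕ) : ℝ) := by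
    have hN : ∑ i : Fin (K + 2), wtW K g wm ca LB i (p i).1 (p i).2 *
        rhW K g wm ca LB i (p i).1 (p i).2 ≤ (K + 2) * (9 * wm + 18 * z) := by
      have e1 : ∀ i : Fin (K + 2), wtW K g wm ca LB i (p i).1 (p i).2 *
          rhW K g wm ca LB i (p i).1 (p i).2 =
          (fun i => if 1 ≤ i ∧ i ≤ K then wt ca (xs (i - 1)) * ((cl (xs (i - 1)) - ca) + 2 * z)
            else 2 * z) (i : ℕ) := by
        intro i
        by_cases hi : 1 ≤ (i : ℕ) ∧ (i : ℕ) ≤ K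
        · have hu : (i : ℕ) - 1 < K := by omega
          have hl : labX K g LB ((p i).2 : ℕ) = xs (i - 1) := by
            rw [hp i, ← hx _ hu]
            congr 2
            omega
          simp only
          rw [if_pos hi, wtW_unit hi.1 hi.2 hl (hc _ hu), rhW_unit hi.1 hi.2 hl (hc _ hu)]
        · simp only
          rw [if_neg hi, wtW_shift hi, rhW_shift hi, one_mul]
      rw [Finset.sum_congr rfl fun i _ => e1 i,
        Fin.sum_univ_eq_sum_range (fun i => if 1 ≤ i ∧ i ≤ K then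
          wt ca (xs (i - 1)) * ((cl (xs (i - 1)) - ca) + 2 * z) else 2 * z),
        Finset.sum_range_succ, Finset.sum_range_succ', if_neg (by omega), if_neg (by omega)]
      have e2 : ∑ u ∈ range K, (if 1 ≤ u + 1 ∧ u + 1 ≤ K then
          wt ca (xs (u + 1 - 1)) * ((cl (xs (u + 1 - 1)) - ca) + 2 * z) else 2 * z) =
          ∑ u ∈ range K, wt ca (xs u) * (cl (xs u) - ca) +
            (∑ u ∈ range K, wt ca (xs u)) * (2 * z) := by
        rw [Finset.sum_mul, ← Finset.sum_add_distrib]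
        refine Finset.sum_congr rfl fun u hu => ?_
        have := Finset.mem_range.1 hu
        rw [if_pos (by omega), Nat.add_sub_cancel, mul_add]
      rw [e2]
      have h3 := Nat.mul_le_mul_right (2 * z) h1
      have h4 : (K + 2) * (9 * wm + 18 * z) =
        9 * K * wm + 9 * K * (2 * z) + (18 * wm + 36 * z) := by ring
      omega
    exact_mod_cast hN
  refine (phi_le (fun i => row_massW_le _) (fun i e => Nat.cast_nonneg _) hX).trans
    (le_of_eq ?_)
  rw [Fintype.card_fin]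
  push_cast
  ring

/-- **(am)** Edge weights. -/
theorem wtW_pos_real (i x y : ℕ) : (0 : ℝ) < (wtW K g wm ca LB i x y : ℝ) := by
  exact_mod_cast wtW_pos K g wm ca LB i x y

theorem wtW_le_real (i x y : ℕ) : (wtW K g wm ca LB i x y : ℝ) ≤ ((2 ^ wm : ℕ) : ℝ) := by
  exact_mod_cast wtW_le K g wm ca LB i x y

theorem le_mul_cdiv (a b : ℕ) (hb : 0 < b) : (a : ℝ) / b ≤ (cdiv a b : ℕ) := by
  have h : a ≤ b * cdiv a b := by
    unfold cdiv
    have := Nat.lt_div_mul_add (a := a + b - 1) hb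
    rw [Nat.mul_comm b]
    omega
  have hb' : (0 : ℝ) < b := by exact_mod_cast hb
  rw [div_le_iff₀ hb', mul_comm]
  exact_mod_cast h

/-- **(cap)** The cap of the machine allows the drop of a good unit. -/
theorem capW_le {Z C l : ℕ} {x w cN ε r C8 : ℝ} (hx : 1 ≤ x) (hw0 : 0 ≤ w)
    (hw : w ≤ x * Z) (hr : 2 * r ≤ Z * (8 / (g : ℝ))) (hcN : cN ≤ C8 / 2 ^ l)
    (hC8 : 0 ≤ C8) (hε : 0 ≤ ε) (hC : C8 + (ε + 8 / (g : ℝ)) * 2 ^ l ≤ C) :
    w * (cN + ε) + 2 * r ≤ (cdiv (C * Z) (2 ^ l) : ℕ) * x := by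
  have h2 : (0 : ℝ) < 2 ^ l := by positivity
  have hZ : (0 : ℝ) ≤ Z := Nat.cast_nonneg _
  have h1 : (C * Z : ℝ) / 2 ^ l ≤ (cdiv (C * Z) (2 ^ l) : ℕ) := by
    have := le_mul_cdiv (C * Z) (2 ^ l) (by positivity)
    push_cast at this
    exact this
  have h3 : w * (cN + ε) ≤ x * Z * (C8 / 2 ^ l + ε) := by
    have h4 : cN + ε ≤ C8 / 2 ^ l + ε := by linarith
    have h5 : 0 ≤ C8 / 2 ^ l + ε := by positivity
    calc w * (cN + ε) ≤ w * (C8 / 2 ^ l + ε) := mul_le_mul_of_nonneg_left h4 hw0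
      _ ≤ _ := mul_le_mul_of_nonneg_right hw h5
  have h6 : 2 * r ≤ x * Z * (8 / (g : ℝ)) := by
    refine hr.trans ?_
    have h7 : (0 : ℝ) ≤ Z * (8 / (g : ℝ)) := by positivity
    nlinarith
  have h8 : C8 / 2 ^ l + ε + 8 / (g : ℝ) ≤ C / 2 ^ l := by
    rw [le_div_iff₀ h2]
    have : (C8 / 2 ^ l + ε + 8 / (g : ℝ)) * 2 ^ l = C8 + (ε + 8 / (g : ℝ)) * 2 ^ l := by
      field_simp
      ring
    rw [this]
    exact hC
  have h9 : x * Z * (C8 / 2 ^ l + ε + 8 / (g : ℝ)) ≤ x * Z * (C / 2 ^ l) :=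
    mul_le_mul_of_nonneg_left h8 (by positivity)
  have h10 : x * Z * (C / 2 ^ l) = x * ((C * Z : ℝ) / 2 ^ l) := by ring
  have h11 : x * ((C * Z : ℝ) / 2 ^ l) ≤ x * (cdiv (C * Z) (2 ^ l) : ℕ) :=
    mul_le_mul_of_nonneg_left h1 (by linarith)
  nlinarith

end Vale.Agent.P315.H519
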